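import Vale.Agent.P131.Unified

/-!
# P131: hyperinvariant subspaces for operators `T` with `T K = K p(T)` or `p(T) K = K T`,
`K` a nonzero compact operator
-/

open Filter Topology Polynomial

namespace Vale.Agent.Results.P131.CompactIntertwiners

open Vale.Agent.P131

/-- Let `T ≠ 0` be a bounded operator and `K ≠ 0` a compact operator on a complex normed space.
`T` has a nontrivial closed hyperinvariant subspace in each of the following cases.

1. `T K = K p(T)`, `p(0) = 0`, `∑ |p_i| s ^ i < s` for some `s > 0` and the sequence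
   `‖T ^ n x‖ / s ^ n` is bounded for some vector `x ≠ 0`.
2. `p(T) K = K T`, `p(0) = 0`, `∑ |p_i| s ^ i < s` for some `s > 0` and the sequence
   `‖T ^ n‖ / s ^ n` is bounded.
3. `T K = K p(T)`, `p(0) = 0`, `|p'(0)| < 1` and `‖T ^ n x‖ ^ (1 / n) → 0` for some `x ≠ 0`.
4. `p(T) K = K T`, `p(0) = 0`, `|p'(0)| < 1` and `T` is quasinilpotent.
5. `T = S 0`, all `S n` commute with every operator commuting with `T`,
   `S n K = K S (n + 1)` for all `n`, and for some `x ≠ 0` and every `c > 0` there is `k` with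
   `c ^ n ‖(S n) ^ k x‖ → 0`. -/
theorem result {E : Type*} [NormedAddCommGroup E] [NormedSpace ℂ E] (T K : E →L[ℂ] E)
    (hT : T ≠ 0) (hK : K ≠ 0) (hKc : IsCompactOperator K) :
    (∀ (p : ℂ[X]) (s : ℝ), p.coeff 0 = 0 → 0 < s →
      ∑ i ∈ Finset.range (p.natDegree + 1), ‖p.coeff i‖ * s ^ i < s →
      T * K = K * aeval T p →
      (∃ x : E, x ≠ 0 ∧ ∃ B : ℝ, ∀ n : ℕ, ‖(T ^ n) x‖ ≤ B * s ^ n) →
      HasHyperinvariant T) ∧
    (∀ (p : ℂ[X]) (s : ℝ), p.coeff 0 = 0 → 0 < s →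
      ∑ i ∈ Finset.range (p.natDegree + 1), ‖p.coeff i‖ * s ^ i < s →
      aeval T p * K = K * T →
      (∃ B : ℝ, ∀ n : ℕ, ‖T ^ n‖ ≤ B * s ^ n) →
      HasHyperinvariant T) ∧
    (∀ p : ℂ[X], p.coeff 0 = 0 → ‖p.coeff 1‖ < 1 → T * K = K * aeval T p →
      (∃ x : E, x ≠ 0 ∧
        Tendsto (fun n : ℕ => ‖(T ^ n) x‖ ^ (1 / (n : ℝ))) atTop (𝓝 0)) →
      HasHyperinvariant T) ∧
    (∀ p : ℂ[X], p.coeff 0 = 0 → ‖p.coeff 1‖ < 1 → aeval T p * K = K * T →
      Tendsto (fun n : ℕ => ‖T ^ n‖ ^ (1 / (n : ℝ))) atTop (𝓝 0) →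
      HasHyperinvariant T) ∧
    (∀ S : ℕ → (E →L[ℂ] E), S 0 = T →
      (∀ (n : ℕ) (A : E →L[ℂ] E), A * T = T * A → A * S n = S n * A) →
      (∀ n, S n * K = K * S (n + 1)) →
      (∃ x : E, x ≠ 0 ∧ ∀ c : ℝ, 0 < c → ∃ k : ℕ,
        Tendsto (fun n => c ^ n * ‖(S n ^ k) x‖) atTop (𝓝 0)) →
      HasHyperinvariant T) :=
  ⟨fun p s h0 hs h1 hTK hx => unified_forward hT hK hKc p h0 hTK s hs h1 hx,
   fun p s h0 hs h1 hTK hx => unified_backward hT hK hKc p h0 hTK s hs h1 hx,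
   fun p h0 h1 hTK hx => poly_forward hT hK hKc p h0 h1 hTK hx,
   fun p h0 h1 hTK hx => poly_backward hT hK hKc p h0 h1 hTK hx,
   fun S h0 hcom hSK hx => forward hT hK hKc S h0 hcom hSK hx⟩

end Vale.Agent.Results.P131.CompactIntertwiners
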