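import Vale.Agent.P131.Chain.Cor
import Vale.Agent.P131.Unified

/-!
# P131: Lomonosov's theorem for chains intertwined by a compact operator
-/

open Filter Topology Polynomial

namespace Vale.Agent.Results.P131.LomonosovChains

open Vale.Agent.P131 Vale.Agent.P131.Chain

universe u

/-- `T` is a nonscalar bounded operator, `K ≠ 0` a compact operator. `T` has a nontrivial closed
hyperinvariant subspace in each of the following cases.

1. (complex normed spaces) There are `S 0 = T`, `S 1`, `S 2`, … in the bicommutant of `T` with
   `S n K = K S (n + 1)` for all `n` which grow subexponentially or are small at one vector.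
2. (Hilbert spaces) The same with `S (n + 1) K = K S n` and subexponential growth.
3. (Hilbert spaces) `T K = K p(T)` or `p(T) K = K T` for a polynomial `p`, and the iterates of `p`
   at `T` grow subexponentially, in particular if `T` is dominated by `p` or the spectrum of `T`
   lies in the basin of an attracting fixed point of `p`. -/
theorem result :
    (∀ (E : Type u) [NormedAddCommGroup E] [NormedSpace ℂ E] (T K : E →L[ℂ] E),
      Nonscalar T → K ≠ 0 → IsCompactOperator K → ∀ S : ℕ → (E →L[ℂ] E), Forward T K S →
        Subexponential S ∨ LocallyFast S → HasHyperinvariant T) ∧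
    (∀ (H : Type u) [NormedAddCommGroup H] [InnerProductSpace ℂ H] [CompleteSpace H]
      (T K : H →L[ℂ] H), Nonscalar T → K ≠ 0 → IsCompactOperator K →
      (∀ S : ℕ → (H →L[ℂ] H), Backward T K S → Subexponential S → HasHyperinvariant T) ∧
      ∀ p : ℂ[X], Intertwined p T K → Tame p T → HasHyperinvariant T) := by
  have hit : ∀ (H : Type u) [NormedAddCommGroup H] [InnerProductSpace ℂ H] [CompleteSpace H]
      (T : H →L[ℂ] H) (p : ℂ[X]), iterates p T = Basin.it p T := by
    intro H _ _ _ T p
    funext n
    unfold iterates
    induction n with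
    | zero => rfl
    | succ n ih => rw [Function.iterate_succ_apply', ih]; rfl
  refine ⟨?_, ?_⟩
  · rintro E _ _ T K hT hK0 hK S ⟨h0, hA, hS⟩ (hgr | hx)
    · exact main T K hT hK0 hK S h0 hA hS hgr
    · have hT0 : T ≠ 0 := fun h => hT 0 (by rw [h, zero_smul])
      exact forward hT0 hK0 hK S h0 hA hS hx
  · intro H _ _ _ T K hT hK0 hK
    have : Nontrivial H := by
      by_contra hn
      rw [not_nontrivial_iff_subsingleton] at hn
      exact hK0 (ContinuousLinearMap.ext fun x => Subsingleton.elim _ _)
    refine ⟨fun S ⟨h0, hA, hS⟩ hgr => main_dual T K hT hK0 hK S h0 hA hS hgr, fun p hp => ?_⟩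
    have hall : Subexponential (Basin.it p T) → HasHyperinvariant T := fun h =>
      hp.elim (fun hp => poly_main hT hK0 hK hp h) (fun hp => poly_main_dual hT hK0 hK hp h)
    rintro (h | ⟨s, B, hs, h1, h2⟩ | ⟨z₀, h1, h2, h3⟩)
    · rw [hit] at h
      exact hall h
    · exact hall (subexp_of_maj hs h1 ⟨B, h2⟩)
    · exact hall (subexp_of_basin h1 h2 h3)

end Vale.Agent.Results.P131.LomonosovChains
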