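import Vale.Agent.P131.LI.Main
import Vale.Agent.P131.Basin

/-!
# P131: hyperinvariant subspaces and compact intertwining operators

`T` is a nonscalar bounded operator on a complex Hilbert space and `K` a nonzero compact operator.

1. If `S 0 = T` and `S n * K = K * S (n + 1)` for all `n` (or `K * S n = S (n + 1) * K` for all
   `n`), and, with one number `r`, each power satisfies `‖S n ^ k‖ ≤ M_k * r ^ n` for infinitely
   many `n`, then the commutant of the sequence `S` is not transitive; if all `S n` are in the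
   double commutant of `T`, then `T` has a nontrivial closed hyperinvariant subspace.
2. This holds if `T * K = K * p(T)` (or `K * T = p(T) * K`) for a polynomial `p` whose iterates
   `p(p(...p(T)))` grow subexponentially along a subsequence (for instance are bounded).
3. It holds if moreover the spectrum of `T` lies in the basin of an attracting fixed point of `p`.
4. It holds if `T` is power bounded and `T * K = K * T ^ d` (or `K * T = T ^ d * K`).
5. It holds if `T * K = c K * T` for a complex number `c`.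
-/

open Polynomial Filter

theorem Vale.Agent.Results.P131.LomonosovIterates.result {H : Type*} [NormedAddCommGroup H]
    [InnerProductSpace ℂ H] [CompleteSpace H] (T K : H →L[ℂ] H)
    (hT : ∀ c : ℂ, T ≠ c • (1 : H →L[ℂ] H)) (hK : IsCompactOperator K) (hK0 : K ≠ 0) :
    (∀ (S : ℕ → H →L[ℂ] H) (r : ℝ), S 0 = T →
      (∀ k : ℕ, ∃ M : ℝ, ∃ᶠ n in atTop, ‖S n ^ k‖ ≤ M * r ^ n) →
      ((∀ n, S n * K = K * S (n + 1)) ∨ (∀ n, K * S n = S (n + 1) * K)) →
      P131LI.NotTransitive {A : H →L[ℂ] H | ∀ n, A * S n = S n * A} ∧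
      ((∀ n, P131LI.DoubleCommutes T (S n)) → P131LI.HasHyperinvariantSubspace T)) ∧
    (∀ p : ℂ[X], (∀ ε : ℝ, 0 < ε → ∃ᶠ m : ℕ in atTop,
        ‖(fun B : H →L[ℂ] H => aeval B p)^[m] T‖ ≤ Real.exp (ε * m)) →
      (T * K = K * aeval T p ∨ K * T = aeval T p * K) → P131LI.HasHyperinvariantSubspace T) ∧
    (∀ (p : ℂ[X]) (z₀ : ℂ), p.eval z₀ = z₀ → ‖p.derivative.eval z₀‖ < 1 →
      (∀ z ∈ spectrum ℂ T, Tendsto (fun k => (fun w => p.eval w)^[k] z) atTop (nhds z₀)) →
      (T * K = K * aeval T p ∨ K * T = aeval T p * K) → P131LI.HasHyperinvariantSubspace T) ∧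
    ((∃ M : ℝ, ∀ n : ℕ, ‖T ^ n‖ ≤ M) → ∀ d : ℕ,
      (T * K = K * T ^ d ∨ K * T = T ^ d * K) → P131LI.HasHyperinvariantSubspace T) ∧
    (∀ c : ℂ, T * K = c • (K * T) → P131LI.HasHyperinvariantSubspace T) := by
  haveI : Nontrivial H := by
    by_contra hn
    rw [not_nontrivial_iff_subsingleton] at hn
    exact hK0 (ContinuousLinearMap.ext fun x => Subsingleton.elim _ _)
  -- (1)
  have h1 : ∀ (S : ℕ → H →L[ℂ] H) (r : ℝ), S 0 = T →
      (∀ k : ℕ, ∃ M : ℝ, ∃ᶠ n in atTop, ‖S n ^ k‖ ≤ M * r ^ n) →
      ((∀ n, S n * K = K * S (n + 1)) ∨ (∀ n, K * S n = S (n + 1) * K)) →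
      P131LI.NotTransitive {A : H →L[ℂ] H | ∀ n, A * S n = S n * A} ∧
      ((∀ n, P131LI.DoubleCommutes T (S n)) → P131LI.HasHyperinvariantSubspace T) := by
    rintro S r rfl hb hSK
    have key : P131LI.NotTransitive {A : H →L[ℂ] H | ∀ n, A * S n = S n * A} := by
      rcases hSK with h | h
      · exact P131LI.main_forward S K hT hK hK0 h r hb
      · exact P131LI.main_backward S K hT hK hK0 h r hb
    refine ⟨key, fun hc => ?_⟩
    obtain ⟨N, hN, h0, h1, hinv⟩ := key
    exact ⟨N, hN, h0, h1, fun A hA => hinv A fun n => hc n A hA⟩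
  -- commutation of polynomials
  have hp : ∀ (p : ℂ[X]) (B C D : H →L[ℂ] H), B * C = C * D →
      aeval B p * C = C * aeval D p := by
    intro p B C D h
    induction p using Polynomial.induction_on' with
    | add p q hp hq => rw [map_add, map_add, add_mul, mul_add, hp, hq]
    | monomial n a =>
      have hpow : ∀ n : ℕ, B ^ n * C = C * D ^ n := by
        intro n
        induction n with
        | zero => simp
        | succ n ih => rw [pow_succ, mul_assoc, h, ← mul_assoc, ih, mul_assoc, ← pow_succ]
      rw [aeval_monomial, aeval_monomial, mul_assoc, hpow, ← mul_assoc,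
        Algebra.commutes a C, mul_assoc]
  have h2 : ∀ p : ℂ[X], (∀ ε : ℝ, 0 < ε → ∃ᶠ m : ℕ in atTop,
      ‖(fun B : H →L[ℂ] H => aeval B p)^[m] T‖ ≤ Real.exp (ε * m)) →
      (T * K = K * aeval T p ∨ K * T = aeval T p * K) →
      P131LI.HasHyperinvariantSubspace T := by
    rintro p hM hTK
    set S : ℕ → H →L[ℂ] H := fun m => (fun B : H →L[ℂ] H => aeval B p)^[m] T with hS
    have hSs : ∀ n, S (n + 1) = aeval (S n) p := fun n => Function.iterate_succ_apply' _ _ _
    refine (h1 S (Real.exp 1) rfl (fun k => ⟨1, ?_⟩) ?_).2 ?_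
    · rcases k.eq_zero_or_pos with rfl | hk
      · refine (Eventually.of_forall fun n => ?_).frequently
        rw [pow_zero, one_mul]
        exact ContinuousLinearMap.norm_id_le.trans (one_le_pow₀ (Real.one_le_exp zero_le_one))
      · have hk' : (0 : ℝ) < k := by exact_mod_cast hk
        refine (hM (1 / k) (by positivity)).mono fun n hn => ?_
        rw [one_mul]
        refine (norm_pow_le' _ hk).trans ((pow_le_pow_left₀ (norm_nonneg _) hn k).trans ?_)
        rw [← Real.exp_nat_mul, ← Real.exp_nat_mul]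
        apply le_of_eq
        congr 1
        field_simp
    · rcases hTK with h | h
      · left
        intro n
        induction n with
        | zero => exact h
        | succ n ih => rw [hSs (n + 1), hSs n, hp p _ _ _ ih, ← hSs n]
      · right
        intro n
        induction n with
        | zero => exact h
        | succ n ih =>
          rw [hSs (n + 1), hSs n, ← hp p _ _ _ ih.symm, ← hSs n]
    · intro n
      induction n with
      | zero => exact fun A hA => hA
      | succ n ih =>
        intro A hA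
        rw [hSs n]
        exact (hp p _ _ _ (ih A hA).symm).symm
  -- bounded iterates
  have h3 : ∀ p : ℂ[X], (∃ M : ℝ, ∀ᶠ m : ℕ in atTop,
      ‖(fun B : H →L[ℂ] H => aeval B p)^[m] T‖ ≤ M) →
      (T * K = K * aeval T p ∨ K * T = aeval T p * K) →
      P131LI.HasHyperinvariantSubspace T := by
    rintro p ⟨M, hM⟩ hTK
    refine h2 p (fun ε hε => ?_) hTK
    have h4 : Tendsto (fun m : ℕ => Real.exp (ε * m)) atTop atTop :=
      Real.tendsto_exp_atTop.comp (tendsto_natCast_atTop_atTop.const_mul_atTop hε)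
    exact ((hM.and (h4.eventually_ge_atTop M)).mono fun m hm => hm.1.trans hm.2).frequently
  refine ⟨h1, h2, ?_, ?_, ?_⟩
  · intro p z₀ hz hd hs hTK
    refine h3 p ⟨‖z₀‖ + 1, ?_⟩ hTK
    have h5 := P131.Basin.tendsto_it p T z₀ hz hd hs
    have h6 : ∀ k : ℕ, (fun B : H →L[ℂ] H => aeval B p)^[k] T = P131.Basin.it p T k := by
      intro k
      induction k with
      | zero => rfl
      | succ k ih => rw [Function.iterate_succ_apply', ih]; rfl
    refine (h5.eventually (gt_mem_nhds zero_lt_one)).mono fun k hk => ?_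
    rw [h6]
    have h7 : P131.Basin.it p T k = (P131.Basin.it p T k - algebraMap ℂ (H →L[ℂ] H) z₀) +
        algebraMap ℂ (H →L[ℂ] H) z₀ := by abel
    rw [h7]
    refine (norm_add_le _ _).trans ?_
    rw [norm_algebraMap']
    linarith
  · rintro ⟨M, hM⟩ d hd
    refine h3 (X ^ d) ⟨M, Eventually.of_forall fun m => ?_⟩ ?_
    · have h3 : (fun B : H →L[ℂ] H => aeval B (X ^ d : ℂ[X]))^[m] T = T ^ (d ^ m) := by
        induction m with
        | zero => simp
        | succ m ih =>
          rw [Function.iterate_succ_apply', ih]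
          simp only [map_pow, aeval_X]
          rw [← pow_mul, ← pow_succ]
      rw [h3]
      exact hM _
    · simpa only [map_pow, aeval_X] using hd
  · intro c hc
    have haev : ∀ (c : ℂ) (B : H →L[ℂ] H), aeval B (C c * X : ℂ[X]) = c • B := by
      intro c B
      rw [map_mul, aeval_C, aeval_X, Algebra.algebraMap_eq_smul_one, smul_mul_assoc, one_mul]
    have hit : ∀ (c : ℂ) (m : ℕ), (fun B : H →L[ℂ] H => aeval B (C c * X : ℂ[X]))^[m] T =
        c ^ m • T := by
      intro c m
      induction m with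
      | zero => simp
      | succ m ih =>
        rw [Function.iterate_succ_apply', ih]
        simp only [haev]
        rw [smul_smul, ← pow_succ']
    have hbd : ∀ c : ℂ, ‖c‖ ≤ 1 → ∃ M : ℝ, ∀ᶠ m : ℕ in atTop,
        ‖(fun B : H →L[ℂ] H => aeval B (C c * X : ℂ[X]))^[m] T‖ ≤ M := by
      intro c h
      refine ⟨‖T‖, Eventually.of_forall fun m => ?_⟩
      rw [hit, norm_smul, norm_pow]
      exact mul_le_of_le_one_left (norm_nonneg _) (pow_le_one₀ (norm_nonneg _) h)
    rcases le_or_gt ‖c‖ 1 with h | h
    · refine h3 (C c * X) (hbd c h) (Or.inl ?_)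
      rw [haev, mul_smul_comm]
      exact hc
    · have hc0 : c ≠ 0 := by
        rintro rfl
        rw [norm_zero] at h
        linarith
      refine h3 (C c⁻¹ * X) (hbd c⁻¹ ?_) (Or.inr ?_)
      · rw [norm_inv]
        exact inv_le_one_of_one_le₀ h.le
      · rw [haev, smul_mul_assoc, hc, smul_smul, inv_mul_cancel₀ hc0, one_smul]
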